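import Vale.Agent.P096.All

/-! The strong Kadison-Kastler conjecture for semifinite von Neumann algebras. -/

namespace Vale.Agent.Results.P096.Semifinite

open Vale.Agent.P096

universe u

theorem result : ∀ ε : ℝ, 0 < ε → ∃ δ : ℝ, 0 < δ ∧
    ∀ (H : Type u) [NormedAddCommGroup H] [InnerProductSpace ℂ H] [CompleteSpace H]
      (M N : VonNeumannAlgebra H), Semifinite M → kkDist M N < δ →
      ∃ u ∈ unitary (H →L[ℂ] H), (fun x => u * x * star u) '' (M : Set (H →L[ℂ] H)) = N ∧
        ‖u - 1‖ < ε :=
  final_of main_all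

end Vale.Agent.Results.P096.Semifinite
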